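import Vale.Agent.P070.Main

namespace Vale.Agent.Results.P070.Counterexample

universe u v w

/-- A representation of `A` on `H`: a star homomorphism into the bounded operators. -/
abbrev Rep (A H : Type*) [CStarAlgebra A] [NormedAddCommGroup H] [InnerProductSpace ℂ H]
    [CompleteSpace H] : Type _ :=
  A →⋆ₙₐ[ℂ] (H →L[ℂ] H)

/-- The operator `π a`. -/
noncomputable def op {A H : Type*} [CStarAlgebra A] [NormedAddCommGroup H] [InnerProductSpace ℂ H]
    [CompleteSpace H] (π : Rep A H) (a : A) : H →L[ℂ] H :=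
  π a

/-- An irreducible representation: nonzero, with no closed invariant subspace other than
`0` and the whole space. -/
def IsIrreducible {A H : Type*} [CStarAlgebra A] [NormedAddCommGroup H] [InnerProductSpace ℂ H]
    [CompleteSpace H] (π : Rep A H) : Prop :=
  (∃ a, op π a ≠ 0) ∧
    ∀ W : Submodule ℂ H, IsClosed (W : Set H) → (∀ a, ∀ x ∈ W, op π a x ∈ W) → W = ⊥ ∨ W = ⊤

/-- Unitary equivalence of representations. -/
def UnitarilyEquivalent {A H₁ H₂ : Type*} [CStarAlgebra A] [NormedAddCommGroup H₁]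
    [InnerProductSpace ℂ H₁] [CompleteSpace H₁] [NormedAddCommGroup H₂] [InnerProductSpace ℂ H₂]
    [CompleteSpace H₂] (π₁ : Rep A H₁) (π₂ : Rep A H₂) : Prop :=
  ∃ U : H₁ ≃ₗᵢ[ℂ] H₂, ∀ (a : A) (x : H₁), U (op π₁ a x) = op π₂ a (U x)

/-- `π` is an isomorphism of `A` onto the algebra of compact operators on `H`. -/
def IsIsoOntoCompacts {A H : Type*} [CStarAlgebra A] [NormedAddCommGroup H]
    [InnerProductSpace ℂ H] [CompleteSpace H] (π : Rep A H) : Prop :=
  Function.Injective (op π) ∧ Set.range (op π) = {T : H →L[ℂ] H | IsCompactOperator T}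

theorem result : ∃ (A : Type) (_ : CStarAlgebra A), Nontrivial A ∧
    (∀ (H₁ : Type u) (H₂ : Type v) [NormedAddCommGroup H₁] [InnerProductSpace ℂ H₁]
      [CompleteSpace H₁] [NormedAddCommGroup H₂] [InnerProductSpace ℂ H₂] [CompleteSpace H₂]
      (π₁ : Rep A H₁) (π₂ : Rep A H₂),
      IsIrreducible π₁ → IsIrreducible π₂ → UnitarilyEquivalent π₁ π₂) ∧
    ∀ (H : Type w) [NormedAddCommGroup H] [InnerProductSpace ℂ H] [CompleteSpace H]
      (π : Rep A H), ¬ IsIsoOntoCompacts π := by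
  obtain ⟨A, _, hA, ⟨s0, s1, h0, h1, h01⟩, h⟩ :=
    Vale.Agent.P070.exists_algebra_of.{u, v}
      (default : HilbertBasis (ℕ × ℤ) ℂ (lp (fun _ : ℕ × ℤ => ℂ) 2))
  refine ⟨A, inferInstance, hA, ?_, ?_⟩
  · intro H₁ H₂ _ _ _ _ _ _ π₁ π₂ i1 i2
    obtain ⟨_, ρ₁, a1, a2⟩ := Vale.Agent.P070.exists_unital π₁ i1.1 i1.2
    obtain ⟨_, ρ₂, b1, b2⟩ := Vale.Agent.P070.exists_unital π₂ i2.1 i2.2
    obtain ⟨U, hU⟩ := h H₁ H₂ ρ₁ ρ₂ a1 b1
    exact ⟨U, fun a x => by
      have := hU a x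
      rw [a2, b2] at this
      exact this⟩
  · rintro H _ _ _ φ ⟨hi, hr⟩
    exact Vale.Agent.P070.not_compacts h0 h1 h01 φ hi hr

end Vale.Agent.Results.P070.Counterexample
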